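import Vale.Agent.Lib.P064F.Forest

open Vale.Agent.Lib.P064F

namespace Vale.Agent.Results.P064.A_forest

theorem result {n : ℕ} (H : SimpleGraph (Fin n)) (hH : H.IsAcyclic) (q : ℝ) (hq0 : 0 < q)
    (hq1 : q ≤ 1)
    (hyp : ∀ F : SimpleGraph (Fin n), F ≤ H → (1 / 2 : ℝ) ≤ copies ⊤ F * q ^ numEdges F)
    (F : SimpleGraph (Fin n)) (hF : F ≤ H) :
    (copies H F : ℝ) ≤ copies ⊤ F * (min 1 (2000000 * q)) ^ numEdges F :=
  main_forest H hH q hq0 hq1 hyp F hF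

end Vale.Agent.Results.P064.A_forest
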