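import Mathlib
import Vale.Agent.Lib.P064.Defs
import Vale.Agent.Lib.P064.LogBound

namespace Vale.Agent.Results.P064.A_logn

open Vale.Agent.Lib.P064

/-- Let `H` be any graph on `Fin n`, `n ≥ 2`, and let `q ≥ 0` be such that the expected number
`N ⊤ F * q ^ e F` of copies of `F` in `G(n,q)` is at least `1/2` for every subgraph `F` of `H`.
Then every subgraph `F` of `H` satisfies `N H F ≤ N ⊤ F * (min 1 (500 * log n * q)) ^ e F`,
and if `F` has an edge also `N H F ≤ N ⊤ F * (200 * (1 + log (e H / e F)) * q) ^ e F`. -/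
theorem result {n : ℕ} (hn : 2 ≤ n) (H : SimpleGraph (Fin n)) (q : ℝ) (hq : 0 ≤ q)
    (hstar : ∀ F ≤ H, (1 / 2 : ℝ) ≤ (N ⊤ F : ℝ) * q ^ e F) :
    ∀ F ≤ H, (N H F : ℝ) ≤ (N ⊤ F : ℝ) * (min 1 (500 * Real.log n * q)) ^ e F ∧
      (1 ≤ e F → (N H F : ℝ) ≤
        (N ⊤ F : ℝ) * (200 * (1 + Real.log ((e H : ℝ) / e F)) * q) ^ e F) := by
  intro F hF
  exact ⟨N_le_log hn hq hstar hF, fun hs => N_le_ratio hq hstar hF hs⟩

end Vale.Agent.Results.P064.A_logn
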