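import Mathlib
import Vale.Agent.Lib.P064.Defs
import Vale.Agent.Lib.P064.Proofs

namespace Vale.Agent.Results.P064.A_main

open Vale.Agent.Lib.P064

/-- Let `H` be a graph on `Fin n` of maximum degree at most `Δ`, and let `q ≥ 0` be such that the
expected number `N ⊤ F * q ^ e F` of copies of `F` in `G(n,q)` is at least `1/2` for every
subgraph `F` of `H`. Then every subgraph `F` of `H` satisfies
`N H F ≤ N ⊤ F * (min 1 (L * q)) ^ e F` with `L = 1000 * max Δ 1`. -/
theorem result {n : ℕ} (H : SimpleGraph (Fin n)) (Δ : ℕ)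
    (hΔ : ∀ x, (H.neighborSet x).ncard ≤ Δ) (q : ℝ) (hq : 0 ≤ q)
    (hstar : ∀ F ≤ H, (1 / 2 : ℝ) ≤ (N ⊤ F : ℝ) * q ^ e F) :
    ∀ F ≤ H, (N H F : ℝ) ≤ (N ⊤ F : ℝ) * (min 1 (1000 * (max Δ 1 : ℕ) * q)) ^ e F := by
  classical
  intro F hF
  set D : ℕ := max Δ 1 with hDdef
  have hD1 : 1 ≤ D := le_max_right _ _
  have hD : ∀ u, (H.neighborFinset u).card ≤ D := by
    intro u
    have h1 : (H.neighborSet u).ncard = (H.neighborFinset u).card := by
      rw [Set.ncard_eq_toFinset_card']
      rfl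
    rw [← h1]
    exact (hΔ u).trans (le_max_left _ _)
  by_cases hmin : (1000 * (D : ℝ) * q) ≤ 1
  · rw [min_eq_right hmin]
    have h := N_le_of_degree hq hstar hD hD1 F hF
    refine h.trans ?_
    have hexp : Real.exp 2 * 88 ≤ 1000 := by
      have h1 : Real.exp 2 = Real.exp 1 * Real.exp 1 := by
        rw [← Real.exp_add]
        norm_num
      have h2 := Real.exp_one_lt_d9
      have h3 := Real.exp_pos 1
      rw [h1]
      nlinarith
    have hDq : 0 ≤ (D : ℝ) * q := by positivity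
    have hle : Real.exp 2 * (88 * (D : ℝ) * q) ≤ 1000 * (D : ℝ) * q := by
      calc Real.exp 2 * (88 * (D : ℝ) * q) = (Real.exp 2 * 88) * ((D : ℝ) * q) := by ring
        _ ≤ 1000 * ((D : ℝ) * q) := by gcongr
        _ = _ := by ring
    have hnn : 0 ≤ Real.exp 2 * (88 * (D : ℝ) * q) := by positivity
    gcongr
  · push Not at hmin
    rw [min_eq_left hmin.le, one_pow, mul_one]
    exact_mod_cast N_le_top H F

end Vale.Agent.Results.P064.A_main
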